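import Vale.Agent.Lib.P038.SatK.I.M1_1.H
noncomputable section
namespace Vale.Agent.Lib.P038.SatK.I.M1_1.S0
open Vale.Agent.Lib.P038.Sat Vale.Agent.Lib.P038.SatK Vale.Agent.Lib.P038.SatK.I.M1_1
def b0 : List Nat := [nat_lit 492581209243705,nat_lit 1125908496777224,nat_lit 14171712190176378636161,nat_lit 985188188291112,nat_lit 28339964278831789525008,nat_lit 914836623982616,nat_lit 9447615902871348070497,nat_lit 577305237701150833,nat_lit 281543696187465]
def p0 : List Nat := [nat_lit 73791479894465601537,nat_lit 147587463938314420227,nat_lit 221383448531918987267,nat_lit 31526846659133447,nat_lit 4398516273160]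
def o0 : List Nat := [nat_lit 8]
theorem ok : segCheck (Gen.gen sh_6_5_1_t (flM6 1)) W M GT 4 0 1 H [b0] [] [p0] [o0] = true := by decide +kernel
theorem seg {τ : Nat → Bool} (hgen : ∀ t c, Gen.gen sh_6_5_1_t (flM6 1) t = some c → holdsG τ c)
  (hin : ∀ g, g < 0 → HL W (loc GT τ) (getB H g)) :
  ∀ g, 0 ≤ g → g < 1 → HL W (loc GT τ) (getB H g) :=
  segCheck_sound ok hgen hin
end Vale.Agent.Lib.P038.SatK.I.M1_1.S0
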